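import Vale.Agent.P233.RA.Defs
import Vale.Agent.P233.H71.Dav2
import Vale.Agent.P233.H131.HL
import Vale.Agent.P233.H183.Unit

/-! P233 / RCDA, block S1, Davies half: the heat semigroup and the Hopf-Lax weights. -/

set_option linter.all false

open MeasureTheory Filter Topology Set
open scoped ENNReal NNReal

universe u

namespace Vale.Agent.P233.H732

open H131 RA

/-! ### truncation -/

section trunc

variable {M : Type u} [MetricSpace M] {B L : ℝ} {f : M → ℝ}

/-- cut-off -/
noncomputable def cut (o : M) (R : ℝ) (x : M) : ℝ := max 0 (min 1 (2 - dist o x / R))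

theorem cut_nonneg (o : M) (R : ℝ) (x : M) : 0 ≤ cut o R x := le_max_left _ _

theorem cut_le_one (o : M) (R : ℝ) (x : M) : cut o R x ≤ 1 :=
  max_le zero_le_one (min_le_left _ _)

theorem cut_eq_one {o : M} {R : ℝ} (hR : 0 < R) {x : M} (hx : dist o x ≤ R) : cut o R x = 1 := by
  unfold cut
  have : dist o x / R ≤ 1 := by rwa [div_le_one hR]
  rw [min_eq_left (by linarith), max_eq_right zero_le_one]

theorem cut_eq_zero {o : M} {R : ℝ} (hR : 0 < R) {x : M} (hx : 2 * R ≤ dist o x) :
    cut o R x = 0 := by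
  unfold cut
  have : 2 ≤ dist o x / R := by rwa [le_div_iff₀ hR]
  apply max_eq_left
  exact (min_le_right _ _).trans (by linarith)

theorem cut_lip {o : M} {R : ℝ} (hR : 0 < R) (x y : M) :
    |cut o R x - cut o R y| ≤ R⁻¹ * dist x y := by
  unfold cut
  have h1 : |(2 - dist o x / R) - (2 - dist o y / R)| ≤ R⁻¹ * dist x y := by
    have : (2 - dist o x / R) - (2 - dist o y / R) = R⁻¹ * (dist o y - dist o x) := by
      field_simp; ring
    rw [this, abs_mul, abs_of_pos (inv_pos.2 hR)]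
    gcongr
    rw [dist_comm o y, dist_comm o x, dist_comm x y]
    exact abs_dist_sub_le y x o
  refine le_trans ?_ h1
  rw [max_comm 0, max_comm 0, min_comm 1, min_comm 1]
  exact (abs_max_sub_max_le_abs _ _ _).trans (abs_inf_sub_inf_le_abs _ _ _)

/-- truncation: equal to `f` in `B_R(o)`, to `B` outside of `B_2R(o)`. -/
noncomputable def tr (o : M) (B R : ℝ) (f : M → ℝ) (x : M) : ℝ := B + cut o R x * (f x - B)

theorem B_nonneg (hf : BL f B L) (x : M) : 0 ≤ B := (abs_nonneg _).trans (hf.bd x)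

theorem tr_le (hf : BL f B L) (o : M) (R : ℝ) (x : M) : f x ≤ tr o B R f x := by
  unfold tr
  have h1 := (abs_le.1 (hf.bd x)).2
  have h2 := cut_le_one o R x
  nlinarith

theorem tr_abs (hf : BL f B L) (o : M) (R : ℝ) (x : M) : |tr o B R f x| ≤ B := by
  have h1 := abs_le.1 (hf.bd x)
  have h2 := cut_le_one o R x
  have h3 := cut_nonneg o R x
  unfold tr
  rw [abs_le]
  constructor <;> nlinarith

theorem tr_eq {o : M} {R : ℝ} (hR : 0 < R) {x : M} (hx : dist o x ≤ R) : tr o B R f x = f x := by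
  unfold tr
  rw [cut_eq_one hR hx]; ring

theorem tr_out {o : M} {R : ℝ} (hR : 0 < R) {x : M} (hx : 2 * R ≤ dist o x) : tr o B R f x = B := by
  unfold tr
  rw [cut_eq_zero hR hx]; ring

theorem tr_BL (hf : BL f B L) (o : M) {R : ℝ} (hR : 1 ≤ R) : BL (tr o B R f) B (L + 2 * B) := by
  have hR0 : 0 < R := by linarith
  have hB0 : 0 ≤ B := B_nonneg hf o
  refine ⟨by have := hf.L0; positivity, tr_abs hf o R, fun x y => ?_⟩
  have e : tr o B R f x - tr o B R f y
      = cut o R x * (f x - f y) + (cut o R x - cut o R y) * (f y - B) := by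
    unfold tr; ring
  rw [e]
  refine (abs_add_le _ _).trans ?_
  rw [abs_mul, abs_mul, abs_of_nonneg (cut_nonneg o R x)]
  have h1 : cut o R x * |f x - f y| ≤ L * dist x y :=
    calc cut o R x * |f x - f y| ≤ 1 * |f x - f y| := by gcongr; exact cut_le_one o R x
      _ = |f x - f y| := one_mul _
      _ ≤ _ := hf.lip x y
  have h2 : |cut o R x - cut o R y| ≤ dist x y :=
    (cut_lip hR0 x y).trans (by
      have : R⁻¹ ≤ 1 := inv_le_one_of_one_le₀ hR
      nlinarith [dist_nonneg (x := x) (y := y)])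
  have h3 : |f y - B| ≤ 2 * B := by
    have := abs_le.1 (hf.bd y)
    rw [abs_le]
    constructor <;> linarith
  have h4 : |cut o R x - cut o R y| * |f y - B| ≤ dist x y * (2 * B) := by gcongr
  linarith

/-- monotonicity in the function -/
theorem qq_mono {g : M → ℝ} {B' L' : ℝ} (hf : BL f B L) (hg : BL g B' L')
    (h : ∀ x, f x ≤ g x) (s : ℝ) (x : M) : qq f s x ≤ qq g s x := by
  by_cases hs : 0 < s
  · refine le_qq hs fun y => (qq_le hf hs x y).trans ?_
    linarith [h y]
  · rw [qq, qq, if_neg hs, if_neg hs]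
    exact h x

end trunc

/-! ### Davies -/

section dav

variable {M : Type u} [MetricSpace M] [MeasurableSpace M] [BorelSpace M]
  [SecondCountableTopology M] {m : Measure M} {n : ℕ} {K θ : ℝ} {B L : ℝ} {f : M → ℝ}

theorem Q_cont (hC : IsDir (sob m)) {b : M →ₘ[m] ℝ} (hb : MemLp b 2 m) (t : ℝ) :
    Tendsto (fun s => I ((RA.Q m s b - RA.Q m t b) ^ 2)) (𝓝 t) (𝓝 0) := by
  have h1 := hC.P_cont hb (t / 2)
  have h2 : Tendsto (fun s : ℝ => s / 2) (𝓝 t) (𝓝 (t / 2)) := tendsto_id.div_const 2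
  exact h1.comp h2

theorem Q_deriv (hC : IsDir (sob m)) {b : M →ₘ[m] ℝ} (hb : MemLp b 2 m) {t : ℝ} (ht : 0 < t) :
    Tendsto (fun s => I (((s - t)⁻¹ • (RA.Q m s b - RA.Q m t b)
      - ((1 : ℝ) / 2) • (sob m).lap (RA.Q m t b)) ^ 2)) (𝓝[≠] t) (𝓝 0) := by
  have h1 := hC.P_deriv (half_pos ht) hb
  have h2 : Tendsto (fun s : ℝ => s / 2) (𝓝[≠] t) (𝓝[≠] (t / 2)) := by
    apply tendsto_nhdsWithin_of_tendsto_nhds_of_eventually_within
    · exact (tendsto_id.div_const 2).mono_left nhdsWithin_le_nhds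
    · filter_upwards [self_mem_nhdsWithin] with s hs
      intro h
      apply hs
      have h3 : s / 2 = t / 2 := h
      show s = t
      linarith
  have h3 := (h1.comp h2).const_mul (((1 : ℝ) / 2) ^ 2)
  rw [mul_zero] at h3
  refine h3.congr' ?_
  filter_upwards [self_mem_nhdsWithin] with s hs
  have hst : s - t ≠ 0 := sub_ne_zero.2 hs
  simp only [Function.comp_apply]
  rw [← I_smul]
  congr 1
  have e2 : (s - t)⁻¹ = (1 / 2) * (s / 2 - t / 2)⁻¹ := by
    have : s / 2 - t / 2 = (s - t) / 2 := by ring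
    rw [this]
    field_simp
  unfold RA.Q
  rw [e2, mul_smul, ← smul_sub, smul_pow]

/-- the case of functions that are constant far away -/
theorem davies_const (hN : NSp m n K θ) (hf : BL f B L) {o : M} {R c : ℝ}
    (hc : ∀ y, R ≤ dist o y → f y = c) {b : M →ₘ[m] ℝ} (hb : MemLp b 2 m) {T : ℝ} (hT : 0 ≤ T) :
    ∫ x, RA.Q m T b x ^ 2 * Real.exp (2 * qq f T x) ∂m ≤
      ∫ x, b x ^ 2 * Real.exp (2 * f x) ∂m := by
  have := hN.proper
  have hC := hN.isDir
  have hL0 := hf.L0
  have key := H71.davies hC (t0 := 0) (T := T) (ε := 1) (B := B) (Lt := 4 * L ^ 2)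
    (z := fun t => qq f t) (h := fun t => RA.Q m t b) (l := fun t => (sob m).lap (RA.Q m t b))
    one_pos ?_ ?_ ?_ ?_ ?_ ?_ ?_ ?_ 0 T le_rfl hT le_rfl
  · have e0 : RA.Q m 0 b = b := by
      unfold RA.Q
      rw [zero_div, hC.P_zero_time hb]
    have e1 : ∀ x, qq f 0 x = f x := fun x => by simp [qq]
    simp only [div_one, e0, e1] at key
    exact key
  · intro t
    rcases le_or_gt 0 t with ht | ht
    · exact (hf.qq ht).cont.measurable.aemeasurable
    · have : qq f t = f := by
        funext x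
        rw [qq, if_neg (not_lt.2 ht.le)]
      rw [this]
      exact hf.cont.measurable.aemeasurable
  · exact Eventually.of_forall fun x t _ => abs_qq_le hf t x
  · exact Eventually.of_forall fun x t ht s hs => qq_time hf ht.1 hs.1 x
  · intro t ht
    have hbt := hf.qq ht.1.le
    set u : M → ℝ := fun x => qq f t x - c with hu
    have huL : LipschitzWith (3 * L).toNNReal u := by
      refine LipschitzWith.of_dist_le_mul fun x y => ?_
      rw [Real.coe_toNNReal _ (by positivity), Real.dist_eq]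
      have e : u x - u y = qq f t x - qq f t y := by simp only [hu]; ring
      rw [e]
      exact hbt.lip x y
    have hu0 : ∀ x, R + 2 * T * L ≤ dist o x → u x = 0 := by
      intro x hx
      simp only [hu]
      rw [qq_const hf hc ht.1.le ht.2.le hx, sub_self]
    have hA := H183.cl_mem_A hN.fin huL hu0
    refine ⟨c, cl m u, hA, ?_, ?_, ?_⟩
    · refine mem_top_iff.2 ⟨((3 * L).toNNReal : ℝ) ^ 2, ?_⟩
      filter_upwards [H183.Γ_cl_le hN.fin huL hu0, hC.Γ_nonneg_ae hA.1] with x h1 h2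
      rwa [abs_of_nonneg h2]
    · filter_upwards [H183.cl_cont (m := m) huL.continuous] with x hx
      rw [hx]
      simp only [hu]
      ring
    · filter_upwards [hN.slope_eq u _ huL ⟨o, R + 2 * T * L, fun x hx => hu0 x (by rwa [dist_comm])⟩,
        sob_Γ_self_ae hA.1, slope_ae hA.1] with x h1 h2 h3 η hη
      have h4 : (sob m).Γ (cl m u) (cl m u) x = (lipAt u x).toReal ^ 2 := by
        rw [h2, ← h3, h1]
      rw [h4]
      refine hj hf ht.1 x ENNReal.toReal_nonneg (fun d hd h => ?_) hη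
      apply ENNReal.toReal_le_of_le_ofReal hd
      rw [Met.lipAt_le_ofReal_iff hd]
      intro c' hc'
      filter_upwards [h c' hc'] with y hy
      have e : u y - u x = qq f t y - qq f t x := by simp only [hu]; ring
      rw [e]
      exact hy
  · intro t _
    exact hC.P_mem2 _ hb
  · intro t _
    exact (Q_cont hC hb t).mono_left nhdsWithin_le_nhds
  · intro t ht
    exact hC.P_isLap (half_pos ht.1) hb
  · intro t ht
    exact (Q_deriv hC hb ht.1).mono_left (nhdsWithin_mono _ fun y hy => ne_of_gt hy)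

/-- **Davies' estimate with a Hopf-Lax weight.** `P_t` is generated by `Δ/2`. -/
theorem davies_hl (hN : NSp m n K θ) (hf : BL f B L) {b : M →ₘ[m] ℝ} (hb : MemLp b 2 m)
    {T : ℝ} (hT : 0 ≤ T) :
    ∫ x, RA.Q m T b x ^ 2 * Real.exp (2 * qq f T x) ∂m ≤
      ∫ x, b x ^ 2 * Real.exp (2 * f x) ∂m := by
  have := hN.proper
  have hC := hN.isDir
  rcases isEmpty_or_nonempty M with hM | ⟨⟨o⟩⟩
  · simp [Measure.eq_zero_of_isEmpty]
  have hQ2 : MemLp (RA.Q m T b) 2 m := hC.P_mem2 _ hb
  have hexp : ∀ a : ℝ, a ≤ B → Real.exp (2 * a) ≤ Real.exp (2 * B) := by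
    intro a ha
    apply Real.exp_le_exp.2
    linarith
  have hm : ∀ {g : M → ℝ} {B' L' : ℝ}, BL g B' L' → Measurable fun x => Real.exp (2 * g x) := by
    intro g B' L' hg
    exact Real.measurable_exp.comp (hg.cont.measurable.const_mul 2)
  -- integrability
  have hint : ∀ {v : M →ₘ[m] ℝ} {g : M → ℝ} {L' : ℝ}, MemLp v 2 m → BL g B L' →
      Integrable (fun x => v x ^ 2 * Real.exp (2 * g x)) m := by
    intro v g L' hv hg
    refine (hv.integrable_sq.const_mul (Real.exp (2 * B))).mono' ?_ ?_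
    · exact ((AEEqFun.aestronglyMeasurable v).pow 2).mul (hm hg).aestronglyMeasurable
    · refine Eventually.of_forall fun x => ?_
      rw [Real.norm_eq_abs, abs_of_nonneg (by positivity), mul_comm]
      exact mul_le_mul_of_nonneg_right (hexp _ ((le_abs_self _).trans (hg.bd x))) (sq_nonneg _)
  -- the truncated inequality
  have hk : ∀ k : ℕ, ∫ x, RA.Q m T b x ^ 2 * Real.exp (2 * qq f T x) ∂m ≤
      ∫ x, b x ^ 2 * Real.exp (2 * tr o B (k + 1) f x) ∂m := by
    intro k
    have hk1 : (1 : ℝ) ≤ k + 1 := by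
      have : (0 : ℝ) ≤ k := Nat.cast_nonneg k
      linarith
    have hk0 : (0 : ℝ) < k + 1 := by linarith
    have htr := tr_BL hf o hk1
    have h1 := davies_const hN htr (o := o) (R := 2 * (k + 1)) (c := B)
      (fun y hy => tr_out hk0 hy) hb hT
    refine le_trans ?_ h1
    apply integral_mono (hint hQ2 (hf.qq hT)) (hint hQ2 (htr.qq hT))
    intro x
    dsimp only
    have h2 := qq_mono hf htr (tr_le hf o (k + 1)) T x
    gcongr
  -- the limit
  have hlim : Tendsto (fun k : ℕ => ∫ x, b x ^ 2 * Real.exp (2 * tr o B (k + 1) f x) ∂m) atTop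
      (𝓝 (∫ x, b x ^ 2 * Real.exp (2 * f x) ∂m)) := by
    apply tendsto_integral_of_dominated_convergence (fun x => Real.exp (2 * B) * b x ^ 2)
    · intro k
      have hk1 : (1 : ℝ) ≤ k + 1 := by
        have : (0 : ℝ) ≤ k := Nat.cast_nonneg k
        linarith
      exact (hint hb (tr_BL hf o hk1)).aestronglyMeasurable
    · exact hb.integrable_sq.const_mul _
    · intro k
      refine Eventually.of_forall fun x => ?_
      rw [Real.norm_eq_abs, abs_of_nonneg (by positivity), mul_comm]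
      exact mul_le_mul_of_nonneg_right
        (hexp _ ((le_abs_self _).trans (tr_abs hf o _ x))) (sq_nonneg _)
    · refine Eventually.of_forall fun x => ?_
      apply tendsto_const_nhds.congr'
      filter_upwards [eventually_ge_atTop (Nat.ceil (dist o x))] with k hk
      have h1 : dist o x ≤ k + 1 := by
        have h2 : dist o x ≤ (Nat.ceil (dist o x) : ℝ) := Nat.le_ceil _
        have h3 : (Nat.ceil (dist o x) : ℝ) ≤ k := by exact_mod_cast hk
        linarith
      rw [tr_eq (by positivity) h1]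
  exact ge_of_tendsto' hlim hk

omit [MetricSpace M] [BorelSpace M] [SecondCountableTopology M] in
/-- Cauchy-Schwarz -/
theorem int_cs {f g : M → ℝ} (hf : MemLp f 2 m) (hg : MemLp g 2 m) :
    ∫ x, f x * g x ∂m ≤ √(∫ x, f x ^ 2 ∂m) * √(∫ x, g x ^ 2 ∂m) := by
  have ef := AEEqFun.coeFn_mk f hf.aestronglyMeasurable
  have eg := AEEqFun.coeFn_mk g hg.aestronglyMeasurable
  set f' : M →ₘ[m] ℝ := AEEqFun.mk f hf.aestronglyMeasurable
  set g' : M →ₘ[m] ℝ := AEEqFun.mk g hg.aestronglyMeasurable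
  have h := I_cs (hf.ae_eq ef.symm : MemLp f' 2 m) (hg.ae_eq eg.symm : MemLp g' 2 m)
  have e1 : I (f' * g') = ∫ x, f x * g x ∂m := by
    unfold I
    apply integral_congr_ae
    filter_upwards [mul_ae f' g', ef, eg] with x a1 a2 a3
    rw [a1, a2, a3]
  have e2 : I (f' ^ 2) = ∫ x, f x ^ 2 ∂m := by
    unfold I
    apply integral_congr_ae
    filter_upwards [sq_ae f', ef] with x a1 a2
    rw [a1, a2]
  have e3 : I (g' ^ 2) = ∫ x, g x ^ 2 ∂m := by
    unfold I
    apply integral_congr_ae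
    filter_upwards [sq_ae g', eg] with x a1 a2
    rw [a1, a2]
  rw [e1, e2, e3] at h
  rw [← Real.sqrt_mul (integral_nonneg fun x => sq_nonneg _)]
  exact (le_abs_self _).trans (Real.abs_le_sqrt h)

/-- `exp (ψ/T) √H` -/
noncomputable def wt (ψ : M → ℝ) (T : ℝ) (H : M → ℝ) (x : M) : ℝ := Real.exp (ψ x / T) * √(H x)

omit [MeasurableSpace M] [BorelSpace M] [SecondCountableTopology M] in
theorem wt_nonneg (ψ : M → ℝ) (T : ℝ) (H : M → ℝ) (x : M) : 0 ≤ wt ψ T H x := by
  unfold wt; positivity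

omit [SecondCountableTopology M] in
theorem wt_memLp {ψ : M → ℝ} (hψ : BL ψ B L) {T : ℝ} (hT : 0 < T) {H : M → ℝ}
    (hH0 : ∀ x, 0 ≤ H x) (hH : Integrable H m) : MemLp (wt ψ T H) 2 m := by
  have hmH : AEStronglyMeasurable (fun x => √(H x)) m :=
    Real.continuous_sqrt.comp_aestronglyMeasurable hH.aestronglyMeasurable
  have hme : Measurable fun x => Real.exp (ψ x / T) :=
    Real.measurable_exp.comp (hψ.cont.measurable.div_const T)
  have hm : AEStronglyMeasurable (wt ψ T H) m := hme.aestronglyMeasurable.mul hmH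
  rw [memLp_two_iff_integrable_sq hm]
  refine (hH.const_mul (Real.exp (B / T) ^ 2)).mono' (hm.pow 2) ?_
  refine Eventually.of_forall fun x => ?_
  have h1 : Real.exp (ψ x / T) ≤ Real.exp (B / T) := by
    apply Real.exp_le_exp.2
    have := (le_abs_self _).trans (hψ.bd x)
    gcongr
  rw [Real.norm_eq_abs, abs_of_nonneg (sq_nonneg _)]
  unfold wt
  rw [mul_pow, Real.sq_sqrt (hH0 x)]
  have := hH0 x
  gcongr

/-- **Davies' estimate in dual form**: the first half of block S1. -/
theorem davies_dual (hN : NSp m n K θ) {φ ψ : M → ℝ} {B' L' : ℝ} (hφ : BL φ B L)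
    (hψ : BL ψ B' L') (h : ∀ x y, φ x + ψ y ≤ dist x y ^ 2 / 2) {T : ℝ} (hT : 0 < T)
    {F H : M → ℝ} (hF0 : ∀ x, 0 ≤ F x) (hH0 : ∀ x, 0 ≤ H x) (hF : Integrable F m)
    (hH : Integrable H m) :
    ∫ x, wt φ T F x * RA.Q m T (cl m (wt ψ T H)) x ∂m ≤ √(∫ x, F x ∂m) * √(∫ x, H x ∂m) := by
  have := hN.proper
  have hC := hN.isDir
  have hb' := wt_memLp hψ hT hH0 hH
  have hbe := H183.cl_ae (m := m) hb'.aestronglyMeasurable
  set b : M →ₘ[m] ℝ := cl m (wt ψ T H) with hbdef
  have hb : MemLp b 2 m := hb'.ae_eq hbe.symm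
  have hQ2 : MemLp (RA.Q m T b) 2 m := hC.P_mem2 _ hb
  -- the potential
  have hf : BL (fun x => -(ψ x / T)) (B' / T) (L' / T) := by
    refine ⟨div_nonneg hψ.L0 hT.le, fun x => ?_, fun x y => ?_⟩
    · rw [abs_neg, abs_div, abs_of_pos hT]
      have := hψ.bd x
      gcongr
    · have e : -(ψ x / T) - -(ψ y / T) = -((ψ x - ψ y) / T) := by ring
      rw [e, abs_neg, abs_div, abs_of_pos hT, div_mul_eq_mul_div]
      have := hψ.lip x y
      gcongr
  have hdav := davies_hl hN hf hb hT.le
  have hR : ∫ x, b x ^ 2 * Real.exp (2 * (-(ψ x / T))) ∂m = ∫ x, H x ∂m := by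
    apply integral_congr_ae
    filter_upwards [hbe] with x hx
    rw [hx]
    unfold wt
    rw [mul_pow, Real.sq_sqrt (hH0 x), ← Real.exp_nat_mul]
    have : Real.exp ((2 : ℕ) * (ψ x / T)) * H x * Real.exp (2 * (-(ψ x / T)))
        = H x * Real.exp ((2 : ℕ) * (ψ x / T) + 2 * (-(ψ x / T))) := by
      rw [Real.exp_add]; ring
    rw [this]
    have e : ((2 : ℕ) : ℝ) * (ψ x / T) + 2 * (-(ψ x / T)) = 0 := by push_cast; ring
    rw [e, Real.exp_zero, mul_one]
  rw [hR] at hdav
  -- the weighted function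
  set G : M → ℝ := fun x => Real.exp (φ x / T) * RA.Q m T b x with hG
  have hmφ : Measurable fun x => Real.exp (φ x / T) :=
    Real.measurable_exp.comp (hφ.cont.measurable.div_const T)
  have hGm : AEStronglyMeasurable G m :=
    hmφ.aestronglyMeasurable.mul (AEEqFun.aestronglyMeasurable _)
  have hqexp : ∀ x, Real.exp (φ x / T) ^ 2 ≤ Real.exp (2 * qq (fun x => -(ψ x / T)) T x) := by
    intro x
    rw [← Real.exp_nat_mul]
    apply Real.exp_le_exp.2
    have h1 : φ x / T ≤ qq (fun x => -(ψ x / T)) T x := by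
      refine le_qq hT fun y => ?_
      have h2 := h x y
      have e : -(ψ y / T) + dist x y ^ 2 / (2 * T) = (dist x y ^ 2 / 2 - ψ y) / T := by
        field_simp
        ring
      rw [e]
      gcongr
      linarith
    push_cast
    linarith
  have hBqq : ∀ x, Real.exp (2 * qq (fun x => -(ψ x / T)) T x) ≤ Real.exp (2 * (B' / T)) := by
    intro x
    apply Real.exp_le_exp.2
    have := (le_abs_self _).trans (abs_qq_le hf T x)
    linarith
  have hint1 : Integrable (fun x => RA.Q m T b x ^ 2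
      * Real.exp (2 * qq (fun x => -(ψ x / T)) T x)) m := by
    refine (hQ2.integrable_sq.const_mul (Real.exp (2 * (B' / T)))).mono' ?_ ?_
    · exact ((AEEqFun.aestronglyMeasurable _).pow 2).mul
        (Real.measurable_exp.comp ((hf.qq hT.le).cont.measurable.const_mul 2)).aestronglyMeasurable
    · refine Eventually.of_forall fun x => ?_
      rw [Real.norm_eq_abs, abs_of_nonneg (by positivity), mul_comm]
      exact mul_le_mul_of_nonneg_right (hBqq x) (sq_nonneg _)
  have hGsq : Integrable (fun x => G x ^ 2) m := by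
    refine hint1.mono' (hGm.pow 2) (Eventually.of_forall fun x => ?_)
    rw [Real.norm_eq_abs, abs_of_nonneg (sq_nonneg _)]
    simp only [hG]
    rw [mul_pow, mul_comm]
    exact mul_le_mul_of_nonneg_left (hqexp x) (sq_nonneg _)
  have hG2 : MemLp G 2 m := (memLp_two_iff_integrable_sq hGm).2 hGsq
  have hGle : ∫ x, G x ^ 2 ∂m ≤ ∫ x, H x ∂m := by
    refine (integral_mono hGsq hint1 fun x => ?_).trans hdav
    simp only [hG]
    rw [mul_pow, mul_comm]
    exact mul_le_mul_of_nonneg_left (hqexp x) (sq_nonneg _)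
  have hFm : AEStronglyMeasurable (fun x => √(F x)) m :=
    Real.continuous_sqrt.comp_aestronglyMeasurable hF.aestronglyMeasurable
  have hFsq : Integrable (fun x => √(F x) ^ 2) m := by
    refine hF.congr (Eventually.of_forall fun x => ?_)
    exact (Real.sq_sqrt (hF0 x)).symm
  have hF2 : MemLp (fun x => √(F x)) 2 m := (memLp_two_iff_integrable_sq hFm).2 hFsq
  have hCS : ∫ x, √(F x) * G x ∂m ≤ √(∫ x, √(F x) ^ 2 ∂m) * √(∫ x, G x ^ 2 ∂m) :=
    int_cs hF2 hG2
  calc ∫ x, wt φ T F x * RA.Q m T b x ∂m = ∫ x, √(F x) * G x ∂m := by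
        apply integral_congr_ae
        refine Eventually.of_forall fun x => ?_
        simp only [hG, wt]
        ring
    _ ≤ √(∫ x, √(F x) ^ 2 ∂m) * √(∫ x, G x ^ 2 ∂m) := hCS
    _ ≤ √(∫ x, F x ∂m) * √(∫ x, H x ∂m) := by
        have e : ∫ x, √(F x) ^ 2 ∂m = ∫ x, F x ∂m :=
          integral_congr_ae (Eventually.of_forall fun x => Real.sq_sqrt (hF0 x))
        rw [e]
        gcongr

end dav

end Vale.Agent.P233.H732
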