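import Vale.Agent.P233.RA.IfHK
import Vale.Agent.P233.H732.DavHL

/-! P233 / RCDA, blocks H5 and S1. -/

set_option linter.all false

open MeasureTheory Filter Topology Set
open scoped ENNReal NNReal

universe u

namespace Vale.Agent.P233.H732

open H131 RA

section

variable {M : Type u} [MetricSpace M]

theorem BLip.bl {φ : M → ℝ} (h : BLip φ) : ∃ B L : ℝ, BL φ B L := by
  obtain ⟨⟨L, hL⟩, B, hB⟩ := h
  refine ⟨B, L, L.2, hB, fun x y => ?_⟩
  have := hL.dist_le_mul x y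
  rwa [Real.dist_eq] at this

variable [MeasurableSpace M] [BorelSpace M] {m : Measure M}

/-- the class of `exp (φ/T)` -/
theorem exp_cl {φ : M → ℝ} {B L : ℝ} (hφ : BL φ B L) (T : ℝ) :
    ⇑(cl m fun x => Real.exp (φ x / T)) =ᵐ[m] fun x => Real.exp (φ x / T) :=
  H183.cl_ae (Real.measurable_exp.comp (hφ.cont.measurable.div_const T)).aestronglyMeasurable

theorem exp_mem {φ : M → ℝ} {B L : ℝ} (hφ : BL φ B L) {T : ℝ} (hT : 0 < T) :
    MemLp (cl m fun x => Real.exp (φ x / T)) ∞ m := by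
  refine mem_top_iff.2 ⟨Real.exp (B / T), ?_⟩
  filter_upwards [exp_cl (m := m) hφ T] with x hx
  rw [hx, abs_of_pos (Real.exp_pos _)]
  apply Real.exp_le_exp.2
  have := (le_abs_self _).trans (hφ.bd x)
  gcongr

theorem exp_mul_mem {φ : M → ℝ} {B L : ℝ} (hφ : BL φ B L) {T : ℝ} (hT : 0 < T) {f : M →ₘ[m] ℝ}
    (hf : MemLp f 2 m) : MemLp (cl m (fun x => Real.exp (φ x / T)) * f : M →ₘ[m] ℝ) 2 m := by
  rw [mul_comm]
  exact mem_top_mul hf (exp_mem hφ hT)

end

section

variable {M : Type u} [MetricSpace M] [MeasurableSpace M] [BorelSpace M]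
  [SecondCountableTopology M] {m : Measure M} {n : ℕ} {K θ : ℝ}

theorem davies_cl (hN : NSp m n K θ) {φ ψ : M → ℝ} {B L B' L' : ℝ} (hφ : BL φ B L)
    (hψ : BL ψ B' L') (h : ∀ x y, φ x + ψ y ≤ dist x y ^ 2 / 2) {T : ℝ} (hT : 0 < T)
    {f g : M →ₘ[m] ℝ} (hf : MemLp f 2 m) (hg : MemLp g 2 m) :
    I ((cl m (fun x => Real.exp (φ x / T)) * f) * Q m T (cl m (fun x => Real.exp (ψ x / T)) * g))
      ≤ √(I (f ^ 2)) * √(I (g ^ 2)) := by
  have := hN.proper
  have hC := hN.isDir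
  set b : M →ₘ[m] ℝ := cl m (fun x => Real.exp (ψ x / T)) * g with hbdef
  have hb : MemLp b 2 m := exp_mul_mem hψ hT hg
  have hQ2 : MemLp (RA.Q m T b) 2 m := hC.P_mem2 _ hb
  -- the potential
  have hF : BL (fun x => -(ψ x / T)) (B' / T) (L' / T) := by
    refine ⟨div_nonneg hψ.L0 hT.le, fun x => ?_, fun x y => ?_⟩
    · rw [abs_neg, abs_div, abs_of_pos hT]
      have := hψ.bd x
      gcongr
    · have e : -(ψ x / T) - -(ψ y / T) = -((ψ x - ψ y) / T) := by ring
      rw [e, abs_neg, abs_div, abs_of_pos hT, div_mul_eq_mul_div]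
      have := hψ.lip x y
      gcongr
  have hdav := davies_hl hN hF hb hT.le
  have hR : ∫ x, b x ^ 2 * Real.exp (2 * (-(ψ x / T))) ∂m = I (g ^ 2) := by
    unfold I
    apply integral_congr_ae
    filter_upwards [mul_ae (cl m (fun x => Real.exp (ψ x / T))) g, exp_cl (m := m) hψ T, sq_ae g]
      with x a1 a2 a3
    rw [hbdef, a1, a2, a3, mul_pow, ← Real.exp_nat_mul]
    have : Real.exp ((2 : ℕ) * (ψ x / T)) * g x ^ 2 * Real.exp (2 * (-(ψ x / T)))
        = g x ^ 2 * Real.exp ((2 : ℕ) * (ψ x / T) + 2 * (-(ψ x / T))) := by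
      rw [Real.exp_add]; ring
    rw [this]
    have e : ((2 : ℕ) : ℝ) * (ψ x / T) + 2 * (-(ψ x / T)) = 0 := by push_cast; ring
    rw [e, Real.exp_zero, mul_one]
  rw [hR] at hdav
  -- the weighted function
  set G : M → ℝ := fun x => Real.exp (φ x / T) * RA.Q m T b x with hG
  have hmφ : Measurable fun x => Real.exp (φ x / T) :=
    Real.measurable_exp.comp (hφ.cont.measurable.div_const T)
  have hGm : AEStronglyMeasurable G m :=
    hmφ.aestronglyMeasurable.mul (AEEqFun.aestronglyMeasurable _)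
  have hqexp : ∀ x, Real.exp (φ x / T) ^ 2 ≤ Real.exp (2 * qq (fun x => -(ψ x / T)) T x) := by
    intro x
    rw [← Real.exp_nat_mul]
    apply Real.exp_le_exp.2
    have h1 : φ x / T ≤ qq (fun x => -(ψ x / T)) T x := by
      refine le_qq hT fun y => ?_
      have h2 := h x y
      have e : -(ψ y / T) + dist x y ^ 2 / (2 * T) = (dist x y ^ 2 / 2 - ψ y) / T := by
        field_simp
        ring
      rw [e]
      gcongr
      linarith
    push_cast
    linarith
  have hBqq : ∀ x, Real.exp (2 * qq (fun x => -(ψ x / T)) T x) ≤ Real.exp (2 * (B' / T)) := by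
    intro x
    apply Real.exp_le_exp.2
    have := (le_abs_self _).trans (abs_qq_le hF T x)
    linarith
  have hint1 : Integrable (fun x => RA.Q m T b x ^ 2
      * Real.exp (2 * qq (fun x => -(ψ x / T)) T x)) m := by
    refine (hQ2.integrable_sq.const_mul (Real.exp (2 * (B' / T)))).mono' ?_ ?_
    · exact ((AEEqFun.aestronglyMeasurable _).pow 2).mul
        (Real.measurable_exp.comp ((hF.qq hT.le).cont.measurable.const_mul 2)).aestronglyMeasurable
    · refine Eventually.of_forall fun x => ?_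
      rw [Real.norm_eq_abs, abs_of_nonneg (by positivity), mul_comm]
      exact mul_le_mul_of_nonneg_right (hBqq x) (sq_nonneg _)
  have hGsq : Integrable (fun x => G x ^ 2) m := by
    refine hint1.mono' (hGm.pow 2) (Eventually.of_forall fun x => ?_)
    rw [Real.norm_eq_abs, abs_of_nonneg (sq_nonneg _)]
    simp only [hG]
    rw [mul_pow, mul_comm]
    exact mul_le_mul_of_nonneg_left (hqexp x) (sq_nonneg _)
  have hG2 : MemLp G 2 m := (memLp_two_iff_integrable_sq hGm).2 hGsq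
  have hGle : ∫ x, G x ^ 2 ∂m ≤ I (g ^ 2) := by
    refine (integral_mono hGsq hint1 fun x => ?_).trans hdav
    simp only [hG]
    rw [mul_pow, mul_comm]
    exact mul_le_mul_of_nonneg_left (hqexp x) (sq_nonneg _)
  have hCS : ∫ x, f x * G x ∂m ≤ √(∫ x, f x ^ 2 ∂m) * √(∫ x, G x ^ 2 ∂m) := int_cs hf hG2
  calc I ((cl m (fun x => Real.exp (φ x / T)) * f) * Q m T b) = ∫ x, f x * G x ∂m := by
        unfold I
        apply integral_congr_ae
        filter_upwards [mul_ae (cl m (fun x => Real.exp (φ x / T)) * f) (Q m T b),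
          mul_ae (cl m (fun x => Real.exp (φ x / T))) f, exp_cl (m := m) hφ T] with x a1 a2 a3
        rw [a1, a2, a3]
        simp only [hG]
        ring
    _ ≤ √(∫ x, f x ^ 2 ∂m) * √(∫ x, G x ^ 2 ∂m) := hCS
    _ ≤ √(I (f ^ 2)) * √(I (g ^ 2)) := by
        have e : ∫ x, f x ^ 2 ∂m = I (f ^ 2) := by
          unfold I
          apply integral_congr_ae
          filter_upwards [sq_ae f] with x a1
          rw [a1]
        rw [e]
        gcongr

end

/-- **Block H5.** -/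
theorem blk_H5 : Blk_H5.{u} := by
  intro M _ _ _ _ _ m n K θ hN φ ψ hφ hψ h T hT f g hf hg
  obtain ⟨B, L, hφ'⟩ := BLip.bl hφ
  obtain ⟨B', L', hψ'⟩ := BLip.bl hψ
  exact davies_cl hN hφ' hψ' h hT hf hg

/-- **Block S1** from H4. -/
theorem blk_S1_of (h4 : Blk_H4.{u}) : Blk_S1.{u} := by
  intro M _ _ _ _ _ m n K θ hN φ ψ hφ hψ h T hT hT1 f g hf0 hg0 hf hg hf1 hg1
  obtain ⟨B, L, hφ'⟩ := BLip.bl hφ
  obtain ⟨B', L', hψ'⟩ := BLip.bl hψ
  have hF := exp_mul_mem hφ' hT hf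
  have hG := exp_mul_mem hψ' hT hg
  have eF : ∀ᵐ x ∂m, (cl m (fun x => Real.exp (φ x / T)) * f : M →ₘ[m] ℝ) x
      = Real.exp (φ x / T) * f x := by
    filter_upwards [mul_ae (cl m (fun x => Real.exp (φ x / T))) f, exp_cl (m := m) hφ' T]
      with x a1 a2
    rw [a1, a2]
  have eG : ∀ᵐ x ∂m, (cl m (fun x => Real.exp (ψ x / T)) * g : M →ₘ[m] ℝ) x
      = Real.exp (ψ x / T) * g x := by
    filter_upwards [mul_ae (cl m (fun x => Real.exp (ψ x / T))) g, exp_cl (m := m) hψ' T]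
      with x a1 a2
    rw [a1, a2]
  have hF0 : (0 : M →ₘ[m] ℝ) ≤ cl m (fun x => Real.exp (φ x / T)) * f := by
    rw [le_iff_ae]
    filter_upwards [eF, zero_ae (M := M) (m := m), le_iff_ae.1 hf0] with x a1 a2 a3
    rw [a1, a2]
    rw [a2] at a3
    positivity
  have hG0 : (0 : M →ₘ[m] ℝ) ≤ cl m (fun x => Real.exp (ψ x / T)) * g := by
    rw [le_iff_ae]
    filter_upwards [eG, zero_ae (M := M) (m := m), le_iff_ae.1 hg0] with x a1 a2 a3
    rw [a1, a2]
    rw [a2] at a3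
    positivity
  have key := h4 M m n K θ hN T hT hT1 _ _ hF0 hG0 hF hG
  have h5 := davies_cl hN hφ' hψ' h hT hf hg
  have e : ∫⁻ x, ∫⁻ y, ENNReal.ofReal
      (Real.exp (φ x / T) * f x * KH n K θ T x y * (Real.exp (ψ y / T) * g y)) ∂m ∂m
      = ∫⁻ x, ∫⁻ y, ENNReal.ofReal ((cl m (fun x => Real.exp (φ x / T)) * f : M →ₘ[m] ℝ) x
        * KH n K θ T x y * (cl m (fun x => Real.exp (ψ x / T)) * g : M →ₘ[m] ℝ) y) ∂m ∂m := by
    apply lintegral_congr_ae
    filter_upwards [eF] with x hx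
    apply lintegral_congr_ae
    filter_upwards [eG] with y hy
    rw [hx, hy]
  rw [e]
  refine key.trans ?_
  rw [← ENNReal.ofReal_one]
  apply ENNReal.ofReal_le_ofReal
  refine h5.trans ?_
  have h6 : √(I (f ^ 2)) ≤ 1 := Real.sqrt_le_one.2 hf1
  have h7 : √(I (g ^ 2)) ≤ 1 := Real.sqrt_le_one.2 hg1
  calc √(I (f ^ 2)) * √(I (g ^ 2)) ≤ 1 * 1 := by gcongr
    _ = 1 := one_mul 1

end Vale.Agent.P233.H732
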