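import Vale.Agent.P233.H732.BlkH5
import Vale.Agent.P233.H825.RA4

/-! P233 stage 3: the Davies pair for arbitrary locally finite measures (no density, no
`slope_eq`): only `proper`, `fin` and `IsDir (sob m)` are used. -/

set_option linter.all false

open MeasureTheory Filter Topology Set
open scoped ENNReal NNReal

universe u

namespace Vale.Agent.P233.H732

open H131 RA

/-- what Davies' estimate needs -/
structure Dv {M : Type u} [MetricSpace M] [MeasurableSpace M] (m : Measure M) : Prop where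
  proper : ProperSpace M
  fin : ∀ (x : M) (r : ℝ), m (Metric.ball x r) < ∞
  dir : IsDir (sob m)

section dav

variable {M : Type u} [MetricSpace M] [MeasurableSpace M] [BorelSpace M]
  [SecondCountableTopology M] {m : Measure M} {B L : ℝ} {f : M → ℝ}

omit [SecondCountableTopology M] in
/-- `|Du| ≤ lip u` a.e. for Lipschitz functions with bounded support -/
theorem slope_le_lip (hfin : ∀ (x : M) (r : ℝ), m (Metric.ball x r) < ∞) {u : M → ℝ} {K : ℝ≥0}
    (hu : LipschitzWith K u) {o : M} {R : ℝ} (h0 : ∀ x, R ≤ dist o x → u x = 0) :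
    ∀ᵐ x ∂m, slope (cl m u) x ≤ (lipAt u x).toReal := by
  have hW := H183.cl_mem_W hfin hu h0
  have hg := Met.good_of_bounded_support hfin hu (x₀ := o) (R := R) (fun x hx => h0 x (by
    rw [Metric.mem_ball, not_lt, dist_comm] at hx; exact hx))
  have hfin' : ∀ x, lipAt u x ≠ ∞ := fun x =>
    ((Met.lipAt_le_ofReal_iff K.coe_nonneg).2 (Met.LipBd.of_lipschitz hu x)).trans_lt
      ENNReal.ofReal_lt_top |>.ne
  have hgood : Met.Good m u (fun x => (lipAt u x).toReal) := by
    refine ⟨hg.1, hg.2.1, ?_, Eventually.of_forall fun x => ⟨ENNReal.toReal_nonneg, ?_⟩⟩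
    · refine hg.2.2.1.mono (RA.measurable_lipAt hu.continuous).ennreal_toReal.aestronglyMeasurable ?_
      filter_upwards [hg.2.2.2] with x hx
      rw [Real.norm_eq_abs, Real.norm_eq_abs, abs_of_nonneg ENNReal.toReal_nonneg,
        abs_of_nonneg hx.1]
      exact ENNReal.toReal_le_of_le_ofReal hx.1 hx.2
    · rw [ENNReal.ofReal_toReal (hfin' x)]
  have h1 := (hgood.rSlope.congr (H183.cl_cont hu.continuous).symm (Eventually.of_forall fun _ => rfl)).mslope_le
  filter_upwards [h1, slope_ae hW] with x a1 a2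
  rw [a2]; exact a1

/-- the case of functions that are constant far away -/
theorem dv_const (hN : Dv m) (hf : BL f B L) {o : M} {R c : ℝ}
    (hc : ∀ y, R ≤ dist o y → f y = c) {b : M →ₘ[m] ℝ} (hb : MemLp b 2 m) {T : ℝ} (hT : 0 ≤ T) :
    ∫ x, RA.Q m T b x ^ 2 * Real.exp (2 * qq f T x) ∂m ≤
      ∫ x, b x ^ 2 * Real.exp (2 * f x) ∂m := by
  have := hN.proper
  have hC := hN.dir
  have hL0 := hf.L0
  have key := H71.davies hC (t0 := 0) (T := T) (ε := 1) (B := B) (Lt := 4 * L ^ 2)
    (z := fun t => qq f t) (h := fun t => RA.Q m t b) (l := fun t => (sob m).lap (RA.Q m t b))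
    one_pos ?_ ?_ ?_ ?_ ?_ ?_ ?_ ?_ 0 T le_rfl hT le_rfl
  · have e0 : RA.Q m 0 b = b := by
      unfold RA.Q
      rw [zero_div, hC.P_zero_time hb]
    have e1 : ∀ x, qq f 0 x = f x := fun x => by simp [qq]
    simp only [div_one, e0, e1] at key
    exact key
  · intro t
    rcases le_or_gt 0 t with ht | ht
    · exact (hf.qq ht).cont.measurable.aemeasurable
    · have : qq f t = f := by
        funext x
        rw [qq, if_neg (not_lt.2 ht.le)]
      rw [this]
      exact hf.cont.measurable.aemeasurable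
  · exact Eventually.of_forall fun x t _ => abs_qq_le hf t x
  · exact Eventually.of_forall fun x t ht s hs => qq_time hf ht.1 hs.1 x
  · intro t ht
    have hbt := hf.qq ht.1.le
    set u : M → ℝ := fun x => qq f t x - c with hu
    have huL : LipschitzWith (3 * L).toNNReal u := by
      refine LipschitzWith.of_dist_le_mul fun x y => ?_
      rw [Real.coe_toNNReal _ (by positivity), Real.dist_eq]
      have e : u x - u y = qq f t x - qq f t y := by simp only [hu]; ring
      rw [e]
      exact hbt.lip x y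
    have hu0 : ∀ x, R + 2 * T * L ≤ dist o x → u x = 0 := by
      intro x hx
      simp only [hu]
      rw [qq_const hf hc ht.1.le ht.2.le hx, sub_self]
    have hA := H183.cl_mem_A hN.fin huL hu0
    refine ⟨c, cl m u, hA, ?_, ?_, ?_⟩
    · refine mem_top_iff.2 ⟨((3 * L).toNNReal : ℝ) ^ 2, ?_⟩
      filter_upwards [H183.Γ_cl_le hN.fin huL hu0, hC.Γ_nonneg_ae hA.1] with x h1 h2
      rwa [abs_of_nonneg h2]
    · filter_upwards [H183.cl_cont (m := m) huL.continuous] with x hx
      rw [hx]
      simp only [hu]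
      ring
    · filter_upwards [slope_le_lip hN.fin huL (o := o) (R := R + 2 * T * L) hu0,
        sob_Γ_self_ae hA.1, slope_ae hA.1, (mem_sob_iff.1 hA.1).mslope_nonneg] with x h1 h2 h3 h0 η hη
      have h4 : (sob m).Γ (cl m u) (cl m u) x ≤ (lipAt u x).toReal ^ 2 := by
        rw [h2, ← h3]
        rw [← h3] at h0
        exact pow_le_pow_left₀ h0 h1 2
      have h5 := hj hf ht.1 x (g := (lipAt u x).toReal) ENNReal.toReal_nonneg (fun d hd h => ?_) hη
      · filter_upwards [h5, self_mem_nhdsWithin] with s hs hst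
        refine hs.trans (mul_le_mul_of_nonneg_left ?_ (sub_nonneg.2 (le_of_lt hst)))
        linarith
      · apply ENNReal.toReal_le_of_le_ofReal hd
        rw [Met.lipAt_le_ofReal_iff hd]
        intro c' hc'
        filter_upwards [h c' hc'] with y hy
        have e : u y - u x = qq f t y - qq f t x := by simp only [hu]; ring
        rw [e]
        exact hy
  · intro t _
    exact hC.P_mem2 _ hb
  · intro t _
    exact (Q_cont hC hb t).mono_left nhdsWithin_le_nhds
  · intro t ht
    exact hC.P_isLap (half_pos ht.1) hb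
  · intro t ht
    exact (Q_deriv hC hb ht.1).mono_left (nhdsWithin_mono _ fun y hy => ne_of_gt hy)

/-- **Davies' estimate with a Hopf-Lax weight.** `P_t` is generated by `Δ/2`. -/
theorem dv_hl (hN : Dv m) (hf : BL f B L) {b : M →ₘ[m] ℝ} (hb : MemLp b 2 m)
    {T : ℝ} (hT : 0 ≤ T) :
    ∫ x, RA.Q m T b x ^ 2 * Real.exp (2 * qq f T x) ∂m ≤
      ∫ x, b x ^ 2 * Real.exp (2 * f x) ∂m := by
  have := hN.proper
  have hC := hN.dir
  rcases isEmpty_or_nonempty M with hM | ⟨⟨o⟩⟩
  · simp [Measure.eq_zero_of_isEmpty]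
  have hQ2 : MemLp (RA.Q m T b) 2 m := hC.P_mem2 _ hb
  have hexp : ∀ a : ℝ, a ≤ B → Real.exp (2 * a) ≤ Real.exp (2 * B) := by
    intro a ha
    apply Real.exp_le_exp.2
    linarith
  have hm : ∀ {g : M → ℝ} {B' L' : ℝ}, BL g B' L' → Measurable fun x => Real.exp (2 * g x) := by
    intro g B' L' hg
    exact Real.measurable_exp.comp (hg.cont.measurable.const_mul 2)
  -- integrability
  have hint : ∀ {v : M →ₘ[m] ℝ} {g : M → ℝ} {L' : ℝ}, MemLp v 2 m → BL g B L' →
      Integrable (fun x => v x ^ 2 * Real.exp (2 * g x)) m := by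
    intro v g L' hv hg
    refine (hv.integrable_sq.const_mul (Real.exp (2 * B))).mono' ?_ ?_
    · exact ((AEEqFun.aestronglyMeasurable v).pow 2).mul (hm hg).aestronglyMeasurable
    · refine Eventually.of_forall fun x => ?_
      rw [Real.norm_eq_abs, abs_of_nonneg (by positivity), mul_comm]
      exact mul_le_mul_of_nonneg_right (hexp _ ((le_abs_self _).trans (hg.bd x))) (sq_nonneg _)
  -- the truncated inequality
  have hk : ∀ k : ℕ, ∫ x, RA.Q m T b x ^ 2 * Real.exp (2 * qq f T x) ∂m ≤
      ∫ x, b x ^ 2 * Real.exp (2 * tr o B (k + 1) f x) ∂m := by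
    intro k
    have hk1 : (1 : ℝ) ≤ k + 1 := by
      have : (0 : ℝ) ≤ k := Nat.cast_nonneg k
      linarith
    have hk0 : (0 : ℝ) < k + 1 := by linarith
    have htr := tr_BL hf o hk1
    have h1 := dv_const hN htr (o := o) (R := 2 * (k + 1)) (c := B)
      (fun y hy => tr_out hk0 hy) hb hT
    refine le_trans ?_ h1
    apply integral_mono (hint hQ2 (hf.qq hT)) (hint hQ2 (htr.qq hT))
    intro x
    dsimp only
    have h2 := qq_mono hf htr (tr_le hf o (k + 1)) T x
    gcongr
  -- the limit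
  have hlim : Tendsto (fun k : ℕ => ∫ x, b x ^ 2 * Real.exp (2 * tr o B (k + 1) f x) ∂m) atTop
      (𝓝 (∫ x, b x ^ 2 * Real.exp (2 * f x) ∂m)) := by
    apply tendsto_integral_of_dominated_convergence (fun x => Real.exp (2 * B) * b x ^ 2)
    · intro k
      have hk1 : (1 : ℝ) ≤ k + 1 := by
        have : (0 : ℝ) ≤ k := Nat.cast_nonneg k
        linarith
      exact (hint hb (tr_BL hf o hk1)).aestronglyMeasurable
    · exact hb.integrable_sq.const_mul _
    · intro k
      refine Eventually.of_forall fun x => ?_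
      rw [Real.norm_eq_abs, abs_of_nonneg (by positivity), mul_comm]
      exact mul_le_mul_of_nonneg_right
        (hexp _ ((le_abs_self _).trans (tr_abs hf o _ x))) (sq_nonneg _)
    · refine Eventually.of_forall fun x => ?_
      apply tendsto_const_nhds.congr'
      filter_upwards [eventually_ge_atTop (Nat.ceil (dist o x))] with k hk
      have h1 : dist o x ≤ k + 1 := by
        have h2 : dist o x ≤ (Nat.ceil (dist o x) : ℝ) := Nat.le_ceil _
        have h3 : (Nat.ceil (dist o x) : ℝ) ≤ k := by exact_mod_cast hk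
        linarith
      rw [tr_eq (by positivity) h1]
  exact ge_of_tendsto' hlim hk

/-- **Davies' estimate in dual form**: the first half of block S1. -/
theorem dv_dual (hN : Dv m) {φ ψ : M → ℝ} {B' L' : ℝ} (hφ : BL φ B L)
    (hψ : BL ψ B' L') (h : ∀ x y, φ x + ψ y ≤ dist x y ^ 2 / 2) {T : ℝ} (hT : 0 < T)
    {F H : M → ℝ} (hF0 : ∀ x, 0 ≤ F x) (hH0 : ∀ x, 0 ≤ H x) (hF : Integrable F m)
    (hH : Integrable H m) :
    ∫ x, wt φ T F x * RA.Q m T (cl m (wt ψ T H)) x ∂m ≤ √(∫ x, F x ∂m) * √(∫ x, H x ∂m) := by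
  have := hN.proper
  have hC := hN.dir
  have hb' := wt_memLp hψ hT hH0 hH
  have hbe := H183.cl_ae (m := m) hb'.aestronglyMeasurable
  set b : M →ₘ[m] ℝ := cl m (wt ψ T H) with hbdef
  have hb : MemLp b 2 m := hb'.ae_eq hbe.symm
  have hQ2 : MemLp (RA.Q m T b) 2 m := hC.P_mem2 _ hb
  -- the potential
  have hf : BL (fun x => -(ψ x / T)) (B' / T) (L' / T) := by
    refine ⟨div_nonneg hψ.L0 hT.le, fun x => ?_, fun x y => ?_⟩
    · rw [abs_neg, abs_div, abs_of_pos hT]
      have := hψ.bd x
      gcongr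
    · have e : -(ψ x / T) - -(ψ y / T) = -((ψ x - ψ y) / T) := by ring
      rw [e, abs_neg, abs_div, abs_of_pos hT, div_mul_eq_mul_div]
      have := hψ.lip x y
      gcongr
  have hdav := dv_hl hN hf hb hT.le
  have hR : ∫ x, b x ^ 2 * Real.exp (2 * (-(ψ x / T))) ∂m = ∫ x, H x ∂m := by
    apply integral_congr_ae
    filter_upwards [hbe] with x hx
    rw [hx]
    unfold wt
    rw [mul_pow, Real.sq_sqrt (hH0 x), ← Real.exp_nat_mul]
    have : Real.exp ((2 : ℕ) * (ψ x / T)) * H x * Real.exp (2 * (-(ψ x / T)))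
        = H x * Real.exp ((2 : ℕ) * (ψ x / T) + 2 * (-(ψ x / T))) := by
      rw [Real.exp_add]; ring
    rw [this]
    have e : ((2 : ℕ) : ℝ) * (ψ x / T) + 2 * (-(ψ x / T)) = 0 := by push_cast; ring
    rw [e, Real.exp_zero, mul_one]
  rw [hR] at hdav
  -- the weighted function
  set G : M → ℝ := fun x => Real.exp (φ x / T) * RA.Q m T b x with hG
  have hmφ : Measurable fun x => Real.exp (φ x / T) :=
    Real.measurable_exp.comp (hφ.cont.measurable.div_const T)
  have hGm : AEStronglyMeasurable G m :=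
    hmφ.aestronglyMeasurable.mul (AEEqFun.aestronglyMeasurable _)
  have hqexp : ∀ x, Real.exp (φ x / T) ^ 2 ≤ Real.exp (2 * qq (fun x => -(ψ x / T)) T x) := by
    intro x
    rw [← Real.exp_nat_mul]
    apply Real.exp_le_exp.2
    have h1 : φ x / T ≤ qq (fun x => -(ψ x / T)) T x := by
      refine le_qq hT fun y => ?_
      have h2 := h x y
      have e : -(ψ y / T) + dist x y ^ 2 / (2 * T) = (dist x y ^ 2 / 2 - ψ y) / T := by
        field_simp
        ring
      rw [e]
      gcongr
      linarith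
    push_cast
    linarith
  have hBqq : ∀ x, Real.exp (2 * qq (fun x => -(ψ x / T)) T x) ≤ Real.exp (2 * (B' / T)) := by
    intro x
    apply Real.exp_le_exp.2
    have := (le_abs_self _).trans (abs_qq_le hf T x)
    linarith
  have hint1 : Integrable (fun x => RA.Q m T b x ^ 2
      * Real.exp (2 * qq (fun x => -(ψ x / T)) T x)) m := by
    refine (hQ2.integrable_sq.const_mul (Real.exp (2 * (B' / T)))).mono' ?_ ?_
    · exact ((AEEqFun.aestronglyMeasurable _).pow 2).mul
        (Real.measurable_exp.comp ((hf.qq hT.le).cont.measurable.const_mul 2)).aestronglyMeasurable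
    · refine Eventually.of_forall fun x => ?_
      rw [Real.norm_eq_abs, abs_of_nonneg (by positivity), mul_comm]
      exact mul_le_mul_of_nonneg_right (hBqq x) (sq_nonneg _)
  have hGsq : Integrable (fun x => G x ^ 2) m := by
    refine hint1.mono' (hGm.pow 2) (Eventually.of_forall fun x => ?_)
    rw [Real.norm_eq_abs, abs_of_nonneg (sq_nonneg _)]
    simp only [hG]
    rw [mul_pow, mul_comm]
    exact mul_le_mul_of_nonneg_left (hqexp x) (sq_nonneg _)
  have hG2 : MemLp G 2 m := (memLp_two_iff_integrable_sq hGm).2 hGsq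
  have hGle : ∫ x, G x ^ 2 ∂m ≤ ∫ x, H x ∂m := by
    refine (integral_mono hGsq hint1 fun x => ?_).trans hdav
    simp only [hG]
    rw [mul_pow, mul_comm]
    exact mul_le_mul_of_nonneg_left (hqexp x) (sq_nonneg _)
  have hFm : AEStronglyMeasurable (fun x => √(F x)) m :=
    Real.continuous_sqrt.comp_aestronglyMeasurable hF.aestronglyMeasurable
  have hFsq : Integrable (fun x => √(F x) ^ 2) m := by
    refine hF.congr (Eventually.of_forall fun x => ?_)
    exact (Real.sq_sqrt (hF0 x)).symm
  have hF2 : MemLp (fun x => √(F x)) 2 m := (memLp_two_iff_integrable_sq hFm).2 hFsq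
  have hCS : ∫ x, √(F x) * G x ∂m ≤ √(∫ x, √(F x) ^ 2 ∂m) * √(∫ x, G x ^ 2 ∂m) :=
    int_cs hF2 hG2
  calc ∫ x, wt φ T F x * RA.Q m T b x ∂m = ∫ x, √(F x) * G x ∂m := by
        apply integral_congr_ae
        refine Eventually.of_forall fun x => ?_
        simp only [hG, wt]
        ring
    _ ≤ √(∫ x, √(F x) ^ 2 ∂m) * √(∫ x, G x ^ 2 ∂m) := hCS
    _ ≤ √(∫ x, F x ∂m) * √(∫ x, H x ∂m) := by
        have e : ∫ x, √(F x) ^ 2 ∂m = ∫ x, F x ∂m :=
          integral_congr_ae (Eventually.of_forall fun x => Real.sq_sqrt (hF0 x))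
        rw [e]
        gcongr

theorem dv_cl (hN : Dv m) {φ ψ : M → ℝ} {B L B' L' : ℝ} (hφ : BL φ B L)
    (hψ : BL ψ B' L') (h : ∀ x y, φ x + ψ y ≤ dist x y ^ 2 / 2) {T : ℝ} (hT : 0 < T)
    {f g : M →ₘ[m] ℝ} (hf : MemLp f 2 m) (hg : MemLp g 2 m) :
    I ((cl m (fun x => Real.exp (φ x / T)) * f) * Q m T (cl m (fun x => Real.exp (ψ x / T)) * g))
      ≤ √(I (f ^ 2)) * √(I (g ^ 2)) := by
  have := hN.proper
  have hC := hN.dir
  set b : M →ₘ[m] ℝ := cl m (fun x => Real.exp (ψ x / T)) * g with hbdef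
  have hb : MemLp b 2 m := exp_mul_mem hψ hT hg
  have hQ2 : MemLp (RA.Q m T b) 2 m := hC.P_mem2 _ hb
  -- the potential
  have hF : BL (fun x => -(ψ x / T)) (B' / T) (L' / T) := by
    refine ⟨div_nonneg hψ.L0 hT.le, fun x => ?_, fun x y => ?_⟩
    · rw [abs_neg, abs_div, abs_of_pos hT]
      have := hψ.bd x
      gcongr
    · have e : -(ψ x / T) - -(ψ y / T) = -((ψ x - ψ y) / T) := by ring
      rw [e, abs_neg, abs_div, abs_of_pos hT, div_mul_eq_mul_div]
      have := hψ.lip x y
      gcongr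
  have hdav := dv_hl hN hF hb hT.le
  have hR : ∫ x, b x ^ 2 * Real.exp (2 * (-(ψ x / T))) ∂m = I (g ^ 2) := by
    unfold I
    apply integral_congr_ae
    filter_upwards [mul_ae (cl m (fun x => Real.exp (ψ x / T))) g, exp_cl (m := m) hψ T, sq_ae g]
      with x a1 a2 a3
    rw [hbdef, a1, a2, a3, mul_pow, ← Real.exp_nat_mul]
    have : Real.exp ((2 : ℕ) * (ψ x / T)) * g x ^ 2 * Real.exp (2 * (-(ψ x / T)))
        = g x ^ 2 * Real.exp ((2 : ℕ) * (ψ x / T) + 2 * (-(ψ x / T))) := by
      rw [Real.exp_add]; ring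
    rw [this]
    have e : ((2 : ℕ) : ℝ) * (ψ x / T) + 2 * (-(ψ x / T)) = 0 := by push_cast; ring
    rw [e, Real.exp_zero, mul_one]
  rw [hR] at hdav
  -- the weighted function
  set G : M → ℝ := fun x => Real.exp (φ x / T) * RA.Q m T b x with hG
  have hmφ : Measurable fun x => Real.exp (φ x / T) :=
    Real.measurable_exp.comp (hφ.cont.measurable.div_const T)
  have hGm : AEStronglyMeasurable G m :=
    hmφ.aestronglyMeasurable.mul (AEEqFun.aestronglyMeasurable _)
  have hqexp : ∀ x, Real.exp (φ x / T) ^ 2 ≤ Real.exp (2 * qq (fun x => -(ψ x / T)) T x) := by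
    intro x
    rw [← Real.exp_nat_mul]
    apply Real.exp_le_exp.2
    have h1 : φ x / T ≤ qq (fun x => -(ψ x / T)) T x := by
      refine le_qq hT fun y => ?_
      have h2 := h x y
      have e : -(ψ y / T) + dist x y ^ 2 / (2 * T) = (dist x y ^ 2 / 2 - ψ y) / T := by
        field_simp
        ring
      rw [e]
      gcongr
      linarith
    push_cast
    linarith
  have hBqq : ∀ x, Real.exp (2 * qq (fun x => -(ψ x / T)) T x) ≤ Real.exp (2 * (B' / T)) := by
    intro x
    apply Real.exp_le_exp.2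
    have := (le_abs_self _).trans (abs_qq_le hF T x)
    linarith
  have hint1 : Integrable (fun x => RA.Q m T b x ^ 2
      * Real.exp (2 * qq (fun x => -(ψ x / T)) T x)) m := by
    refine (hQ2.integrable_sq.const_mul (Real.exp (2 * (B' / T)))).mono' ?_ ?_
    · exact ((AEEqFun.aestronglyMeasurable _).pow 2).mul
        (Real.measurable_exp.comp ((hF.qq hT.le).cont.measurable.const_mul 2)).aestronglyMeasurable
    · refine Eventually.of_forall fun x => ?_
      rw [Real.norm_eq_abs, abs_of_nonneg (by positivity), mul_comm]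
      exact mul_le_mul_of_nonneg_right (hBqq x) (sq_nonneg _)
  have hGsq : Integrable (fun x => G x ^ 2) m := by
    refine hint1.mono' (hGm.pow 2) (Eventually.of_forall fun x => ?_)
    rw [Real.norm_eq_abs, abs_of_nonneg (sq_nonneg _)]
    simp only [hG]
    rw [mul_pow, mul_comm]
    exact mul_le_mul_of_nonneg_left (hqexp x) (sq_nonneg _)
  have hG2 : MemLp G 2 m := (memLp_two_iff_integrable_sq hGm).2 hGsq
  have hGle : ∫ x, G x ^ 2 ∂m ≤ I (g ^ 2) := by
    refine (integral_mono hGsq hint1 fun x => ?_).trans hdav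
    simp only [hG]
    rw [mul_pow, mul_comm]
    exact mul_le_mul_of_nonneg_left (hqexp x) (sq_nonneg _)
  have hCS : ∫ x, f x * G x ∂m ≤ √(∫ x, f x ^ 2 ∂m) * √(∫ x, G x ^ 2 ∂m) := int_cs hf hG2
  calc I ((cl m (fun x => Real.exp (φ x / T)) * f) * Q m T b) = ∫ x, f x * G x ∂m := by
        unfold I
        apply integral_congr_ae
        filter_upwards [mul_ae (cl m (fun x => Real.exp (φ x / T)) * f) (Q m T b),
          mul_ae (cl m (fun x => Real.exp (φ x / T))) f, exp_cl (m := m) hφ T] with x a1 a2 a3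
        rw [a1, a2, a3]
        simp only [hG]
        ring
    _ ≤ √(∫ x, f x ^ 2 ∂m) * √(∫ x, G x ^ 2 ∂m) := hCS
    _ ≤ √(I (f ^ 2)) * √(I (g ^ 2)) := by
        have e : ∫ x, f x ^ 2 ∂m = I (f ^ 2) := by
          unfold I
          apply integral_congr_ae
          filter_upwards [sq_ae f] with x a1
          rw [a1]
        rw [e]
        gcongr

end dav

end Vale.Agent.P233.H732
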